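import Vale.Agent.P088.R2.H972.E.NP

/-!
# P088, stage 3, EST': pair payments of the zone `z0` with itself, region I and zone II

Scalar part. `x = En + s N` is the factor of the letters of region 0.
-/

open Set

noncomputable section

namespace Vale.Agent.P088.R2.H271.E

open Vale.Agent.P088.R2.H961.GW Vale.Agent.P088.R2.H644 Vale.Agent.P088.R2.H551.E
open Vale.Agent.P088.R2.H165.Tab Vale.Agent.P088.R2.H338.E Vale.Agent.P088.R2.H972.E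

variable {E ι : Type*} [NormedAddCommGroup E] [NormedSpace ℝ E] [Fintype ι]
variable {σ τ : Sl E ι} {v₁ v₂ W a b : E → ℝ} {z : E}

/-- The numbers of a point of region 0. -/
structure Zn (ν : Nu E) (s A CK cF CF : ℝ) (z : E) : Prop where
  En : 0 < ν.En z
  N1 : 1 ≤ ν.N z
  s0 : 0 ≤ s
  s1 : s ≤ 1
  A0 : 0 ≤ A
  CK0 : 0 ≤ CK
  cF0 : 0 ≤ cF
  K0 : 0 ≤ ν.K z
  EN : ν.En z ≤ A * ν.N z
  KN : ν.K z ≤ 3 * ν.N z
  KE : ν.K z ≤ CK * ν.En z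
  f1 : cF * ν.N z ^ 2 ≤ ν.F₁ z ∧ ν.F₁ z ≤ CF * ν.N z ^ 2
  f2 : cF * ν.N z ^ 2 ≤ ν.F₂ z ∧ ν.F₂ z ≤ CF * ν.N z ^ 2

namespace Zn

variable {ν : Nu E} {s A CK cF CF : ℝ}

omit [NormedAddCommGroup E] [NormedSpace ℝ E] in
theorem x0 (h : Zn ν s A CK cF CF z) : 0 < ν.En z + s * ν.N z := by
  have h1 := h.En
  have h2 := mul_nonneg h.s0 (zero_le_one.trans h.N1)
  linarith

omit [NormedAddCommGroup E] [NormedSpace ℝ E] in
theorem xN (h : Zn ν s A CK cF CF z) : ν.En z + s * ν.N z ≤ (A + 1) * ν.N z := by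
  have h1 := h.EN
  have h2 := mul_le_mul_of_nonneg_right h.s1 (zero_le_one.trans h.N1)
  linarith

end Zn

omit [NormedAddCommGroup E] [NormedSpace ℝ E] in
theorem fr_le {x : ℝ} (hx : 0 ≤ x) : x / (1 + x) ≤ 1 ∧ x / (1 + x) ≤ x ∧ 0 ≤ x / (1 + x) :=
  ⟨by rw [div_le_one (by linarith)]; linarith, div_le_self hx (by linarith), by positivity⟩

/-- **The cost of region 0 against a margin** with `ζ_j ≥ c₁`, `w_j ≥ c₂ N²`. -/
theorem c0_pay {ν : Nu E} {M : Q8 E} {s A CK cF CF q C η Zm c₁ c₂ : ℝ} {Z : E → ℝ}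
    (h : Zn ν s A CK cF CF z) (hM : Nn M z) (hq : 0 ≤ q) (hC : 0 ≤ C) (hη : 0 < η)
    (hZ : 0 ≤ Z z) (hZm : Z z ≤ Zm) (z1 : c₁ ≤ M.ζ₁ z) (z2 : c₁ ≤ M.ζ₂ z)
    (w1 : c₂ * ν.N z ^ 2 ≤ M.w₁ z) (w2 : c₂ * ν.N z ^ 2 ≤ M.w₂ z)
    (n1 : q * (C * (η * Zm)) ≤ c₁) (n2 : q * (C * (η * Zm)) ≤ c₂ / 2)
    (n3 : q * (C * (1 / η * (A + 4) * Zm)) ≤ c₂ / 2 * ν.N z) :
    q * (c0 ν C s Z η).dens σ τ v₁ v₂ W a b z ≤ M.dens σ τ v₁ v₂ W a b z := by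
  have hx := h.x0
  have hxN := h.xN
  obtain ⟨g1, -, g3⟩ := fr_le hx.le
  have hN : 0 ≤ ν.N z := zero_le_one.trans h.N1
  have Zm0 : 0 ≤ Zm := hZ.trans hZm
  obtain ⟨x, hxe⟩ : ∃ x, x = ν.En z + s * ν.N z := ⟨_, rfl⟩
  rw [← hxe] at hx hxN g1 g3
  obtain ⟨y, hy⟩ : ∃ y, y = x / (1 + x) := ⟨_, rfl⟩
  rw [← hy] at g1 g3
  have ζ : q * (C * (η * (y * Z z))) ≤ c₁ := by
    refine le_trans ?_ n1
    have : y * Z z ≤ 1 * Zm := mul_le_mul g1 hZm hZ zero_le_one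
    rw [one_mul] at this
    gcongr
  have w : q * (C * ((1 / η * (ν.K z + x) + η * ν.N z ^ 2 * y) * Z z)) ≤ c₂ * ν.N z ^ 2 := by
    have e1 : q * (C * (1 / η * (ν.K z + x) * Z z)) ≤ c₂ / 2 * ν.N z * ν.N z := by
      have : ν.K z + x ≤ (A + 4) * ν.N z := by linarith [h.KN]
      have k0 : 0 ≤ ν.K z + x := by linarith [h.K0]
      have A4 : 0 ≤ A + 4 := by linarith [h.A0]
      calc q * (C * (1 / η * (ν.K z + x) * Z z)) ≤
            q * (C * (1 / η * ((A + 4) * ν.N z) * Zm)) := by gcongr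
        _ = q * (C * (1 / η * (A + 4) * Zm)) * ν.N z := by ring
        _ ≤ _ := mul_le_mul_of_nonneg_right n3 hN
    have e2 : q * (C * (η * ν.N z ^ 2 * y * Z z)) ≤ c₂ / 2 * ν.N z ^ 2 := by
      calc q * (C * (η * ν.N z ^ 2 * y * Z z)) ≤ q * (C * (η * ν.N z ^ 2 * 1 * Zm)) := by gcongr
        _ = q * (C * (η * Zm)) * ν.N z ^ 2 := by ring
        _ ≤ _ := mul_le_mul_of_nonneg_right n2 (sq_nonneg _)
    calc q * (C * ((1 / η * (ν.K z + x) + η * ν.N z ^ 2 * y) * Z z)) =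
          q * (C * (1 / η * (ν.K z + x) * Z z)) + q * (C * (η * ν.N z ^ 2 * y * Z z)) := by ring
      _ ≤ c₂ / 2 * ν.N z * ν.N z + c₂ / 2 * ν.N z ^ 2 := add_le_add e1 e2
      _ = _ := by ring
  rw [hy, hxe] at ζ w
  refine L8.dens ⟨?_, ?_, ζ.trans z1, ζ.trans z2, ?_, ?_, w.trans w1, w.trans w2⟩
  · show q * 0 ≤ M.κ z
    rw [mul_zero]; exact hM.κ
  · show q * 0 ≤ M.ζy z
    rw [mul_zero]; exact hM.ζy
  · show q * 0 ≤ M.wb z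
    rw [mul_zero]; exact hM.wb
  · show q * 0 ≤ M.wc z
    rw [mul_zero]; exact hM.wc

/-- **Region 0 pays its own cost.** -/
theorem c0_pay0 {ν : Nu E} {s A CK cF CF q C η Zm c : ℝ} {Z : E → ℝ}
    (h : Zn ν s A CK cF CF z) (hq : 0 ≤ q) (hC : 0 ≤ C) (hη : 0 < η) (hc : 0 ≤ c)
    (hZ : 0 ≤ Z z) (hZm : Z z ≤ Zm) (n1 : q * (C * (η * Zm)) ≤ c / 2)
    (n3 : q * (C * (1 / η * (CK + 1) * Zm)) ≤ c / 2 * ν.N z) :
    q * (c0 ν C s Z η).dens σ τ v₁ v₂ W a b z ≤ (M0 ν c s).dens σ τ v₁ v₂ W a b z := by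
  have hx := h.x0
  obtain ⟨-, g2, g3⟩ := fr_le hx.le
  have hN : 0 ≤ ν.N z := zero_le_one.trans h.N1
  have hE := h.En
  have Zm0 : 0 ≤ Zm := hZ.trans hZm
  have c3 : 0 ≤ CK := h.CK0
  have hEx : ν.En z ≤ ν.En z + s * ν.N z := by
    have := mul_nonneg h.s0 hN
    linarith
  obtain ⟨x, hxe⟩ : ∃ x, x = ν.En z + s * ν.N z := ⟨_, rfl⟩
  rw [← hxe] at hx g2 g3 hEx
  obtain ⟨y, hy⟩ : ∃ y, y = x / (1 + x) := ⟨_, rfl⟩
  rw [← hy] at g2 g3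
  have ζ : q * (C * (η * (y * Z z))) ≤ c * x := by
    calc q * (C * (η * (y * Z z))) ≤ q * (C * (η * (x * Zm))) := by gcongr
      _ = q * (C * (η * Zm)) * x := by ring
      _ ≤ c / 2 * x := mul_le_mul_of_nonneg_right n1 hx.le
      _ ≤ c * x := by
        have : 0 ≤ c * x := by positivity
        linarith
  have w : q * (C * ((1 / η * (ν.K z + x) + η * ν.N z ^ 2 * y) * Z z)) ≤ c * (x * ν.N z ^ 2) := by
    have e1 : q * (C * (1 / η * (ν.K z + x) * Z z)) ≤ c / 2 * (x * ν.N z ^ 2) := by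
      have k1 : ν.K z + x ≤ (CK + 1) * x := by
        have := mul_le_mul_of_nonneg_left hEx c3
        linarith [h.KE]
      have k0 : 0 ≤ ν.K z + x := by linarith [h.K0]
      have k2 : ν.N z ≤ ν.N z ^ 2 := by nlinarith [h.N1]
      calc q * (C * (1 / η * (ν.K z + x) * Z z)) ≤
            q * (C * (1 / η * ((CK + 1) * x) * Zm)) := by gcongr
        _ = q * (C * (1 / η * (CK + 1) * Zm)) * x := by ring
        _ ≤ c / 2 * ν.N z * x := mul_le_mul_of_nonneg_right n3 hx.le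
        _ ≤ c / 2 * ν.N z ^ 2 * x := by gcongr
        _ = _ := by ring
    have e2 : q * (C * (η * ν.N z ^ 2 * y * Z z)) ≤ c / 2 * (x * ν.N z ^ 2) := by
      calc q * (C * (η * ν.N z ^ 2 * y * Z z)) ≤ q * (C * (η * ν.N z ^ 2 * x * Zm)) := by gcongr
        _ = q * (C * (η * Zm)) * (x * ν.N z ^ 2) := by ring
        _ ≤ _ := mul_le_mul_of_nonneg_right n1 (by positivity)
    calc q * (C * ((1 / η * (ν.K z + x) + η * ν.N z ^ 2 * y) * Z z)) =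
          q * (C * (1 / η * (ν.K z + x) * Z z)) + q * (C * (η * ν.N z ^ 2 * y * Z z)) := by ring
      _ ≤ c / 2 * (x * ν.N z ^ 2) + c / 2 * (x * ν.N z ^ 2) := add_le_add e1 e2
      _ = _ := by ring
  rw [hy, hxe] at ζ w
  refine L8.dens ⟨?_, ?_, ζ, ζ, ?_, ?_, w, w⟩
  · show q * 0 ≤ c
    rw [mul_zero]; exact hc
  · show q * 0 ≤ c * ν.En z
    rw [mul_zero]; positivity
  · show q * 0 ≤ (0 : ℝ)
    rw [mul_zero]
  · show q * 0 ≤ (0 : ℝ)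
    rw [mul_zero]

/-- **Region 0 pays** a cost without gradient letters. -/
theorem M0_pay {ν : Nu E} {p : Q8 E} {s c q : ℝ} (hN : 0 ≤ ν.N z) (hs : 0 ≤ s)
    (hc : 0 ≤ c) (hq : 0 ≤ q) (pκ : p.κ z = 0)
    (pb : 0 ≤ p.wb z) (pc : 0 ≤ p.wc z) (z1 : q * p.ζ₁ z ≤ c * ν.En z)
    (z2 : q * p.ζ₂ z ≤ c * ν.En z) (zy : q * p.ζy z ≤ c * ν.En z)
    (w1 : q * (p.w₁ z + 2 * p.wb z + 2 * p.wc z) ≤ c * (ν.En z * ν.N z ^ 2))
    (w2 : q * (p.w₂ z + 2 * p.wb z + 2 * p.wc z) ≤ c * (ν.En z * ν.N z ^ 2)) :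
    q * p.dens σ τ v₁ v₂ W a b z ≤ (M0 ν c s).dens σ τ v₁ v₂ W a b z := by
  have hx : ν.En z ≤ ν.En z + s * ν.N z := by
    have := mul_nonneg hs hN
    linarith
  have x1 : c * ν.En z ≤ c * (ν.En z + s * ν.N z) := mul_le_mul_of_nonneg_left hx hc
  have x2 : c * (ν.En z * ν.N z ^ 2) ≤ c * ((ν.En z + s * ν.N z) * ν.N z ^ 2) := by gcongr
  refine pay8 q 0 (q * p.wb z) (q * p.wc z) 0 le_rfl (by positivity) (by positivity) ?_ ?_ ?_ ?_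
    ?_ ?_ ?_ ?_
  · rw [pκ, mul_zero]; exact hc
  · rw [add_zero]; exact zy
  · rw [mul_zero, add_zero]; exact z1.trans x1
  · rw [mul_zero, add_zero]; exact z2.trans x1
  · show q * p.wb z + 0 ≤ 0 + q * p.wb z
    linarith
  · show q * p.wc z + 0 ≤ 0 + q * p.wc z
    linarith
  · show q * p.w₁ z + 2 * (q * p.wb z) + 2 * (q * p.wc z) ≤
      c * ((ν.En z + s * ν.N z) * ν.N z ^ 2) + 2 * 0
    linarith
  · show q * p.w₂ z + 2 * (q * p.wb z) + 2 * (q * p.wc z) ≤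
      c * ((ν.En z + s * ν.N z) * ν.N z ^ 2) + 2 * 0
    linarith

/-- **Region 0 pays the cost of region I**; `t` is the additional cost (tubes). -/
theorem cI_pay0 {ν : Nu E} {p : Q8 E} {s c q CI Zm t : ℝ} {Zq Zp : E → ℝ} (hN : 1 ≤ ν.N z)
    (hE : ν.N z ≤ ν.En z) (hs : 0 ≤ s) (hc : 0 ≤ c) (hq : 0 ≤ q) (hC : 0 ≤ CI)
    (hp : p.κ z = 0 ∧ p.ζ₁ z = 0 ∧ p.ζ₂ z = 0 ∧ p.ζy z = 0 ∧ p.wb z = 0 ∧ p.wc z = 0)
    (hp1 : p.w₁ z ≤ t * ν.N z) (hp2 : p.w₂ z ≤ t * ν.N z) (ht : 0 ≤ t)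
    (hZ : 0 ≤ Zq z) (hZm : Zq z ≤ Zm) (hZp : 0 ≤ Zp z) (hZpm : Zp z ≤ Zm)
    (n1 : q * (6 * CI * Zm + t) ≤ c * ν.N z) :
    q * (cI ν CI Zq Zp + p).dens σ τ v₁ v₂ W a b z ≤ (M0 ν c s).dens σ τ v₁ v₂ W a b z := by
  obtain ⟨p1, p2, p3, p4, p5, p6⟩ := hp
  have hN0 : 0 ≤ ν.N z := by linarith
  have hE1 : 1 ≤ ν.En z := hN.trans hE
  have hE0 : 0 ≤ ν.En z := by linarith
  have Zm0 : 0 ≤ Zm := hZ.trans hZm
  have cE : 0 ≤ c * ν.En z := by positivity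
  have k : ∀ w : ℝ, w ≤ t * ν.N z → q * (0 + w + 2 * (CI * (ν.En z * Zq z) + 0) +
      2 * (CI * (ν.En z * Zp z + Zq z) + 0)) ≤ c * (ν.En z * ν.N z ^ 2) := by
    intro w hw
    have a1 : CI * (ν.En z * Zq z) ≤ CI * (ν.En z * Zm) := by gcongr
    have a2 : CI * (ν.En z * Zp z + Zq z) ≤ 2 * (CI * (ν.En z * Zm)) := by
      have : ν.En z * Zp z + Zq z ≤ ν.En z * Zm + ν.En z * Zm :=
        add_le_add (by gcongr) (hZm.trans (le_mul_of_one_le_left Zm0 hE1))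
      calc CI * (ν.En z * Zp z + Zq z) ≤ CI * (ν.En z * Zm + ν.En z * Zm) := by gcongr
        _ = _ := by ring
    have a3 : w ≤ t * ν.En z := hw.trans (by gcongr)
    calc q * (0 + w + 2 * (CI * (ν.En z * Zq z) + 0) + 2 * (CI * (ν.En z * Zp z + Zq z) + 0)) ≤
          q * (t * ν.En z + 6 * (CI * (ν.En z * Zm))) := by
            refine mul_le_mul_of_nonneg_left ?_ hq
            linarith
      _ = q * (6 * CI * Zm + t) * ν.En z := by ring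
      _ ≤ c * ν.N z * ν.En z := mul_le_mul_of_nonneg_right n1 hE0
      _ ≤ c * ν.N z ^ 2 * ν.En z := by
          have : ν.N z ≤ ν.N z ^ 2 := by nlinarith
          gcongr
      _ = _ := by ring
  refine M0_pay hN0 hs hc hq ?_ ?_ ?_ ?_ ?_ ?_ ?_ ?_
  · show 0 + p.κ z = 0
    rw [p1, add_zero]
  · show 0 ≤ CI * (ν.En z * Zq z) + p.wb z
    rw [p5]; positivity
  · show 0 ≤ CI * (ν.En z * Zp z + Zq z) + p.wc z
    rw [p6]; positivity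
  · show q * (0 + p.ζ₁ z) ≤ _
    rw [p2, add_zero, mul_zero]; exact cE
  · show q * (0 + p.ζ₂ z) ≤ _
    rw [p3, add_zero, mul_zero]; exact cE
  · show q * (0 + p.ζy z) ≤ _
    rw [p4, add_zero, mul_zero]; exact cE
  · show q * (0 + p.w₁ z + 2 * (CI * (ν.En z * Zq z) + p.wb z) +
      2 * (CI * (ν.En z * Zp z + Zq z) + p.wc z)) ≤ _
    rw [p5, p6]
    exact k _ hp1
  · show q * (0 + p.w₂ z + 2 * (CI * (ν.En z * Zq z) + p.wb z) +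
      2 * (CI * (ν.En z * Zp z + Zq z) + p.wc z)) ≤ _
    rw [p5, p6]
    exact k _ hp2

/-- **Region 0 pays the cost of zone II.** -/
theorem cII_pay0 {ν : Nu E} {s A CK cF CF c q C Zm f : ℝ} {Z : E → ℝ}
    (h : Zn ν s A CK cF CF z) (hc : 0 ≤ c) (hq : 0 ≤ q) (hC : 0 ≤ C) (hf : 0 < f)
    (hE : ν.N z ≤ ν.En z) (hm : ν.m z = ν.En z * ν.r2 z) (hfm : f * ν.N z ≤ ν.m z)
    (hZ : 0 ≤ Z z) (hZm : Z z ≤ Zm) (n1 : q * (C * Zm) ≤ c * ν.N z)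
    (n2 : q * (C * Zm) ≤ c * f * ν.N z) (n3 : q * (C * Zm) * (CF + 2 * A ^ 2) ≤ c * ν.N z) :
    q * (cII ν C Z).dens σ τ v₁ v₂ W a b z ≤ (M0 ν c s).dens σ τ v₁ v₂ W a b z := by
  have hN1 := h.N1
  have hN0 : 0 < ν.N z := by linarith
  have hE0 := h.En
  have hm0 : 0 < ν.m z := lt_of_lt_of_le (by positivity) hfm
  have hr : 0 < ν.r2 z := by
    rw [hm] at hm0
    exact (pos_iff_pos_of_mul_pos hm0).1 hE0
  have Zm0 : 0 ≤ Zm := hZ.trans hZm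
  have g0 : q * (C * Z z) ≤ q * (C * Zm) := by gcongr
  have g1 : 0 ≤ q * (C * Z z) := by positivity
  have m1 : q * (C * Z z) ≤ c * ν.En z := g0.trans (n1.trans (by gcongr))
  have CF0 : 0 ≤ CF := by
    have h1 := h.f1.1.trans h.f1.2
    have h2 : 0 ≤ cF * ν.N z ^ 2 := mul_nonneg h.cF0 (sq_nonneg _)
    have h3 : 0 < ν.N z ^ 2 := by positivity
    by_contra hc
    have := mul_neg_of_neg_of_pos (not_le.1 hc) h3
    linarith
  have fb : ∀ F : ℝ, F ≤ CF * ν.N z ^ 2 →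
      q * (C * Z z * F + 2 * (C * Z z * ν.En z ^ 2) + 2 * (C * Z z * 0)) ≤
        c * (ν.En z * ν.N z ^ 2) := by
    intro F hF
    have e1 : ν.En z ^ 2 ≤ A ^ 2 * ν.N z ^ 2 := by
      rw [← mul_pow]
      exact pow_le_pow_left₀ hE0.le h.EN 2
    have e2 : F + 2 * ν.En z ^ 2 ≤ (CF + 2 * A ^ 2) * ν.N z ^ 2 := by linarith
    calc q * (C * Z z * F + 2 * (C * Z z * ν.En z ^ 2) + 2 * (C * Z z * 0)) =
          q * (C * Z z) * (F + 2 * ν.En z ^ 2) := by ring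
      _ ≤ q * (C * Z z) * ((CF + 2 * A ^ 2) * ν.N z ^ 2) := by gcongr
      _ ≤ q * (C * Zm) * ((CF + 2 * A ^ 2) * ν.N z ^ 2) := by gcongr
      _ = q * (C * Zm) * (CF + 2 * A ^ 2) * ν.N z ^ 2 := by ring
      _ ≤ c * ν.N z * ν.N z ^ 2 := mul_le_mul_of_nonneg_right n3 (sq_nonneg _)
      _ ≤ c * ν.En z * ν.N z ^ 2 := by gcongr
      _ = _ := by ring
  refine M0_pay hN0.le h.s0 hc hq ?_ ?_ ?_ ?_ ?_ ?_ ?_ ?_
  · show C * Z z * 0 = 0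
    rw [mul_zero]
  · show 0 ≤ C * Z z * ν.En z ^ 2
    positivity
  · show 0 ≤ C * Z z * 0
    rw [mul_zero]
  · show q * (C * Z z * 1) ≤ _
    rw [mul_one]; exact m1
  · show q * (C * Z z * 1) ≤ _
    rw [mul_one]; exact m1
  · show q * (C * Z z * (ν.r2 z)⁻¹) ≤ _
    have e : q * (C * Z z * (ν.r2 z)⁻¹) = q * (C * Z z) / ν.r2 z := by
      rw [div_eq_mul_inv]; ring
    rw [e, div_le_iff₀ hr]
    calc q * (C * Z z) ≤ c * f * ν.N z := g0.trans n2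
      _ = c * (f * ν.N z) := by ring
      _ ≤ c * ν.m z := mul_le_mul_of_nonneg_left hfm hc
      _ = _ := by rw [hm]; ring
  · exact fb _ h.f1.2
  · exact fb _ h.f2.2

end Vale.Agent.P088.R2.H271.E
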