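import Vale.Agent.P088.R2.H437.Z0.Qf

/-!
# P088, stage 3, zone 0: the gradient of the weight, both bounds

`c N² ≤ Γ_x(W, W), Γ_y(W, W) ≤ C N²` from helper437's data `Hz`.
-/

open Set Filter
open scoped ContDiff Topology Matrix

noncomputable section

namespace Vale.Agent.P088.R2.H271.E

open Vale.Agent.P088.LR Vale.Agent.P088.HY Vale.Agent.P088.R2.H961.GW Vale.Agent.P088.R2.H644.Ch
open Vale.Agent.P088.R2.H464.Cu (mid dif rq bf Nr sx sy)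
open Vale.Agent.P088.R2.H437.Z0

variable {n : ℕ} {Λ₀ a c₁ β Λ δ ε s R : ℝ} {l : V n → ℝ} {g s₁ s₂ : MF n} {Φ S : ℝ → ℝ}
  {O : Set (V n)} {Ω : Set (VV n)} {z : VV n}

/-- The lower constant. -/
def cL (n : ℕ) (Λ₀ : ℝ) : ℝ := 1 / 4 * (1 / 64) ^ 2 / (1 + 4 * n ^ 3 * Λ₀ ^ 2)

/-- The upper constant. -/
def cG (n : ℕ) (Λ₀ a Λ : ℝ) : ℝ :=
  2 * Λ₀ + (2 * Λ₀ * Λ + Λ₀ * (3 * (2 * n ^ 2 + n ^ 3))) / a

/-- The upper constant of `Γ`. -/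
def cU (n : ℕ) (Λ₀ a Λ : ℝ) : ℝ := 2 * n ^ 2 * cG n Λ₀ a Λ ^ 2

theorem cL_pos (n : ℕ) (Λ₀ : ℝ) : 0 < cL n Λ₀ := by unfold cL; positivity

theorem lo_alg {X N b G D c : ℝ} (hN : 0 ≤ N) (h1 : 1 / 64 * N ≤ X) (h2 : X ^ 2 ≤ c * D)
    (hc : 0 ≤ c) (hD : 0 ≤ D) (hG : 1 / 4 * D ≤ G) (hb : b = 1 / 4 * (1 / 64) ^ 2 / (1 + c)) :
    b * N ^ 2 ≤ G := by
  have h3 : (1 / 64 * N) ^ 2 ≤ X ^ 2 := pow_le_pow_left₀ (by positivity) h1 2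
  have h4 : (1 / 64 * N) ^ 2 ≤ (1 + c) * D := by
    have : c * D ≤ (1 + c) * D := mul_le_mul_of_nonneg_right (by linarith) hD
    linarith
  have h5 : (1 / 64 * N) ^ 2 / (1 + c) ≤ D := by
    rw [div_le_iff₀ (by linarith)]
    linarith
  calc b * N ^ 2 = 1 / 4 * ((1 / 64 * N) ^ 2 / (1 + c)) := by rw [hb]; ring
    _ ≤ 1 / 4 * D := by gcongr
    _ ≤ G := hG

/-- **The lower bound.** -/
theorem F_ge (h : Hz Λ₀ a c₁ β Λ δ ε s R l g s₁ s₂ Φ S O Ω) (hΛ₀ : 1 ≤ Λ₀) (ha : 0 < a)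
    (hβ1 : β ≤ 1) (hβ : kX n Λ₀ a * β ≤ 1) (hz : z ∈ Ω) :
    cL n Λ₀ * deriv Φ (uf l z) ^ 2 ≤ (sx s₁).F (W0 l g Φ S) z ∧
    cL n Λ₀ * deriv Φ (uf l z) ^ 2 ≤ (sy s₂).F (W0 l g Φ S) z := by
  obtain ⟨hx, hy, -⟩ := h.dt.pt z hz
  have hN := h.dt.N0 z hz
  have key : ∀ (s' : MF n) (x : V n), x ∈ O → Nr O ε (ε / R) (ε / R ^ 2) s' → ∀ (w : VV n)
      (Wv : V n), ‖w‖ ≤ 2 * n * Λ₀ → 1 / 32 ≤ dv w (uf l) z →
      dv w (W0 l g Φ S) z = H464.Cu.dt (nu s' l x) Wv →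
      cL n Λ₀ * deriv Φ (uf l z) ^ 2 ≤ bf (s' x) Wv Wv := by
    intro s' x hx' n' w Wv hw hu e
    have h1 := X_ge h hΛ₀ ha hβ1 hβ hz w hw hu
    have h2 := Vale.Agent.P088.R2.H464.Cu.form_ge h.εn (fun i j => n'.b0 x hx' i j) Wv
    have h3 := dt_cs (nu s' l x) Wv
    have h4 : H464.Cu.dt (nu s' l x) (nu s' l x) ≤ 4 * n ^ 3 * Λ₀ ^ 2 := by
      have h5 := nu_le h hΛ₀ n' hx'
      have h6 := dt_le_n (nu s' l x)
      calc _ ≤ _ := h6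
        _ ≤ n * (2 * n * Λ₀) ^ 2 := by gcongr
        _ = _ := by ring
    have h7 := Vale.Agent.P088.R2.H464.Cu.dt_nonneg Wv
    rw [e] at h1
    refine lo_alg hN.le h1 (h3.trans (mul_le_mul_of_nonneg_right h4 h7)) (by positivity) h7
      (by
        have : ((1 : ℝ) / 2) ^ 2 = 1 / 4 := by norm_num
        rwa [this] at h2) rfl
  constructor
  · have e0 : (fun i => (sx s₁).D i (W0 l g Φ S) z) = fun i => dx i (W0 l g Φ S) z :=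
      funext fun i => Vale.Agent.P088.R2.H464.Cu.Dx1 i _ z
    have e1 : (sx s₁).F (W0 l g Φ S) z = bf (s₁ z.1) (fun i => (sx s₁).D i (W0 l g Φ S) z)
      (fun i => (sx s₁).D i (W0 l g Φ S) z) := rfl
    rw [e1, e0]
    refine key s₁ z.1 hx h.n₁ (nu s₁ l z.1, 0) _ ?_ ?_ (dv_inl _ z _)
    · rw [Prod.norm_def]
      simpa using nu_le h hΛ₀ h.n₁ hx
    · rw [h.uv hz]
      have := nu_sq h.εn h.n₁ h.lg hx
      simpa using this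
  · have e0 : (fun i => (sy s₂).D i (W0 l g Φ S) z) = fun i => dy i (W0 l g Φ S) z :=
      funext fun i => Vale.Agent.P088.R2.H464.Cu.Dy1 i _ z
    have e1 : (sy s₂).F (W0 l g Φ S) z = bf (s₂ z.2) (fun i => (sy s₂).D i (W0 l g Φ S) z)
      (fun i => (sy s₂).D i (W0 l g Φ S) z) := rfl
    rw [e1, e0]
    refine key s₂ z.2 hy h.n₂ (0, nu s₂ l z.2) _ ?_ ?_ (dv_inr _ z _)
    · rw [Prod.norm_def]
      simpa using nu_le h hΛ₀ h.n₂ hy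
    · rw [h.uv hz]
      have := nu_sq h.εn h.n₂ h.lg hy
      simpa using this

/-- The first derivatives. -/
theorem dW_le (h : Hz Λ₀ a c₁ β Λ δ ε s R l g s₁ s₂ Φ S O Ω) (hΛ₀ : 1 ≤ Λ₀) (hΛ : 0 ≤ Λ)
    (ha : 0 < a) (hβ1 : β ≤ 1) (hz : z ∈ Ω) (w : VV n) (hw : ‖w‖ ≤ 1) :
    |dv w (W0 l g Φ S) z| ≤ cG n Λ₀ a Λ * deriv Φ (uf l z) := by
  obtain ⟨hx, hy, -⟩ := h.dt.pt z hz
  have hR := h.R0
  have hd := h.β0
  have hN := h.dt.N0 z hz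
  have hE := Real.exp_pos (uf l z)
  have EN := h.EN z hz
  have e := (W0_d h.dt.sΦ h.dt.sS (df_on h.dt.oΩ h.su hz) (df_on h.dt.oΩ h.sr hz) w).e
  have e' : dv w (W0 l g Φ S) z = deriv Φ (uf l z) * dv w (uf l) z +
      (Real.exp (uf l z) * dv w (uf l) z * S (rq g z) +
        Real.exp (uf l z) * (deriv S (rq g z) * dv w (rq g) z)) := e
  rw [e']
  have r1 := r1_le h hβ1 hz w
  have w0 := norm_nonneg w
  have h1 := norm_sub_le w.1 w.2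
  have h2 := norm_fst_le w
  have h3 := norm_snd_le w
  have w1 : ‖w.1 - w.2‖ + ‖w‖ / R ≤ 3 := by
    have h4 : ‖w‖ / R ≤ ‖w‖ := div_le_self w0 h.dt.R1
    linarith
  have S0 : |S (rq g z)| ≤ Λ := by
    have := h.dt.dS z hz 0 (by norm_num)
    simpa using this
  have S1 : |deriv S (rq g z)| ≤ Λ₀ := by
    rw [abs_of_nonneg (by linarith [h.S1 z hz])]
    exact h.S2 z hz
  have u1 : |dv w (uf l) z| ≤ 2 * Λ₀ := by
    rw [h.uv hz]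
    have a1 := h.l1 hx w.1
    have a2 := h.l1 hy w.2
    have a3 : Λ₀ * ‖w.1‖ ≤ Λ₀ * 1 := by gcongr; linarith
    have a4 : Λ₀ * ‖w.2‖ ≤ Λ₀ * 1 := by gcongr; linarith
    exact (abs_add_le _ _).trans (by linarith)
  obtain ⟨b, hb⟩ : ∃ b : ℝ, b = 3 * (2 * n ^ 2 + n ^ 3) := ⟨_, rfl⟩
  have b0 : 0 ≤ b := by rw [hb]; positivity
  have r2 : |dv w (rq g) z| ≤ b := by
    refine r1.trans ?_
    calc (2 * (n : ℝ) ^ 2 + n ^ 3) * (β * (‖w.1 - w.2‖ + ‖w‖ / R))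
        ≤ (2 * (n : ℝ) ^ 2 + n ^ 3) * (1 * 3) := by gcongr
      _ = b := by rw [hb]; ring
  have e1 : Real.exp (uf l z) ≤ deriv Φ (uf l z) / a := by rw [le_div_iff₀ ha]; linarith
  obtain ⟨N, hNe⟩ : ∃ N, N = deriv Φ (uf l z) := ⟨_, rfl⟩
  obtain ⟨E, hEe⟩ : ∃ E, E = Real.exp (uf l z) := ⟨_, rfl⟩
  rw [← hNe] at hN e1 ⊢
  rw [← hEe] at hE e1 ⊢
  have t1 : |N * dv w (uf l) z| ≤ N * (2 * Λ₀) := by
    rw [abs_mul, abs_of_pos hN]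
    gcongr
  have t2 : |E * dv w (uf l) z * S (rq g z)| ≤ N / a * (2 * Λ₀) * Λ := by
    rw [abs_mul, abs_mul, abs_of_pos hE]
    gcongr
  have t3 : |E * (deriv S (rq g z) * dv w (rq g) z)| ≤ N / a * (Λ₀ * b) := by
    rw [abs_mul, abs_mul, abs_of_pos hE]
    gcongr
  refine (abs_add_le _ _).trans ((add_le_add t1 ((abs_add_le _ _).trans (add_le_add t2 t3))).trans
    (le_of_eq ?_))
  unfold cG
  rw [← hb]
  ring

/-- **The upper bound.** -/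
theorem F_le (h : Hz Λ₀ a c₁ β Λ δ ε s R l g s₁ s₂ Φ S O Ω) (hΛ₀ : 1 ≤ Λ₀) (hΛ : 0 ≤ Λ)
    (ha : 0 < a) (hβ1 : β ≤ 1) (hz : z ∈ Ω) :
    (sx s₁).F (W0 l g Φ S) z ≤ cU n Λ₀ a Λ * deriv Φ (uf l z) ^ 2 ∧
    (sy s₂).F (W0 l g Φ S) z ≤ cU n Λ₀ a Λ * deriv Φ (uf l z) ^ 2 := by
  obtain ⟨hx, hy, -⟩ := h.dt.pt z hz
  have hN := h.dt.N0 z hz
  have cG0 : 0 ≤ cG n Λ₀ a Λ := by unfold cG; positivity
  have b0 : 0 ≤ cG n Λ₀ a Λ * deriv Φ (uf l z) := by positivity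
  have key : ∀ (s' : MF n) (x : V n), x ∈ O → Nr O ε (ε / R) (ε / R ^ 2) s' → ∀ Wv : V n,
      (∀ i, |Wv i| ≤ cG n Λ₀ a Λ * deriv Φ (uf l z)) →
      bf (s' x) Wv Wv ≤ cU n Λ₀ a Λ * deriv Φ (uf l z) ^ 2 := by
    intro s' x hx' n' Wv hW
    have h1 : ‖Wv‖ ≤ cG n Λ₀ a Λ * deriv Φ (uf l z) := by
      rw [pi_norm_le_iff_of_nonneg b0]
      exact hW
    have h2 := (le_abs_self _).trans (Vale.Agent.P088.R2.H464.Cu.bf_le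
      (by norm_num : (0 : ℝ) ≤ 2) (fun i j => n'.le2 h.ε1 hx' i j) Wv Wv)
    refine h2.trans ?_
    calc (n : ℝ) ^ 2 * (2 * ‖Wv‖ * ‖Wv‖) ≤ (n : ℝ) ^ 2 * (2 * (cG n Λ₀ a Λ * deriv Φ (uf l z)) *
          (cG n Λ₀ a Λ * deriv Φ (uf l z))) := by gcongr
      _ = _ := by unfold cU; ring
  constructor
  · have e0 : (fun i => (sx s₁).D i (W0 l g Φ S) z) = fun i => dx i (W0 l g Φ S) z :=
      funext fun i => Vale.Agent.P088.R2.H464.Cu.Dx1 i _ z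
    have e1 : (sx s₁).F (W0 l g Φ S) z = bf (s₁ z.1) (fun i => (sx s₁).D i (W0 l g Φ S) z)
      (fun i => (sx s₁).D i (W0 l g Φ S) z) := rfl
    rw [e1, e0]
    refine key s₁ z.1 hx h.n₁ _ fun i => dW_le h hΛ₀ hΛ ha hβ1 hz (Pi.single i 1, 0) ?_
    rw [Prod.norm_def]
    simp [Vale.Agent.P088.R2.H464.Cu.norm_single_le i]
  · have e0 : (fun i => (sy s₂).D i (W0 l g Φ S) z) = fun i => dy i (W0 l g Φ S) z :=
      funext fun i => Vale.Agent.P088.R2.H464.Cu.Dy1 i _ z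
    have e1 : (sy s₂).F (W0 l g Φ S) z = bf (s₂ z.2) (fun i => (sy s₂).D i (W0 l g Φ S) z)
      (fun i => (sy s₂).D i (W0 l g Φ S) z) := rfl
    rw [e1, e0]
    refine key s₂ z.2 hy h.n₂ _ fun i => dW_le h hΛ₀ hΛ ha hβ1 hz (0, Pi.single i 1) ?_
    rw [Prod.norm_def]
    simp [Vale.Agent.P088.R2.H464.Cu.norm_single_le i]

end Vale.Agent.P088.R2.H271.E
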